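import Mathlib
import Vale.Agent.Lib.P205.Killing.Main
import Vale.Agent.Lib.P205.Klein.Main

namespace Vale.Agent.Results.P205.AllEulerZero

open scoped ContDiff
open Vale.Agent.Lib.P205.Killing Vale.Agent.Lib.P205.Klein

/-- Closed surfaces of Euler characteristic zero with a continuous symmetry.
(1) Tori: for any lattice `L = ℤ v₁ + ℤ v₂` in `ℝ²`, any smooth `L`-periodic Riemannian metric
`E dx² + 2 M dx dy + G dy²` on `ℝ²` invariant under the translations `p ↦ p + t w` (`w ≠ 0` arbitrary)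
is induced by a `C^∞` `L`-periodic map into `ℝ⁴`.
(2) Klein bottles: for the group `Γ` generated by `(x + a, y)`, `(x, y + b)`, `(-x, y + b / 2)`, any smooth
`Γ`-invariant Riemannian metric `E(x) dx² + 2 M(x) dx dy + G(x) dy²` is induced by a `C^∞`
`Γ`-invariant map into `ℝ⁴`. -/
theorem result :
    (∀ (v₁ v₂ w : ℝ × ℝ), v₁.1 * v₂.2 - v₁.2 * v₂.1 ≠ 0 → w ≠ 0 →
      ∀ (E M G : ℝ × ℝ → ℝ), ContDiff ℝ ∞ E → ContDiff ℝ ∞ M → ContDiff ℝ ∞ G →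
      (∀ p, 0 < G p) → (∀ p, 0 < E p * G p - M p ^ 2) →
      (∀ p, E (p + v₁) = E p ∧ M (p + v₁) = M p ∧ G (p + v₁) = G p) →
      (∀ p, E (p + v₂) = E p ∧ M (p + v₂) = M p ∧ G (p + v₂) = G p) →
      (∀ (p : ℝ × ℝ) (t : ℝ), E (p + t • w) = E p ∧ M (p + t • w) = M p ∧ G (p + t • w) = G p) →
      ∃ F : ℝ × ℝ → EuclideanSpace ℝ (Fin 4), ContDiff ℝ ∞ F ∧
        (∀ p, F (p + v₁) = F p) ∧ (∀ p, F (p + v₂) = F p) ∧
        ∀ p v u : ℝ × ℝ, inner ℝ (fderiv ℝ F p v) (fderiv ℝ F p u)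
          = E p * v.1 * u.1 + M p * (v.1 * u.2 + v.2 * u.1) + G p * v.2 * u.2) ∧
    (∀ (a b : ℝ), 0 < a → 0 < b →
      ∀ (E M G : ℝ → ℝ), ContDiff ℝ ∞ E → ContDiff ℝ ∞ M → ContDiff ℝ ∞ G →
      (∀ x, 0 < G x) → (∀ x, 0 < E x * G x - M x ^ 2) →
      (∀ x, E (x + a) = E x) → (∀ x, M (x + a) = M x) → (∀ x, G (x + a) = G x) →
      (∀ x, E (-x) = E x) → (∀ x, M (-x) = - M x) → (∀ x, G (-x) = G x) →
      ∃ F : ℝ × ℝ → EuclideanSpace ℝ (Fin 4), ContDiff ℝ ∞ F ∧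
        (∀ p : ℝ × ℝ, F (p.1 + a, p.2) = F p) ∧ (∀ p : ℝ × ℝ, F (p.1, p.2 + b) = F p) ∧
        (∀ p : ℝ × ℝ, F (-p.1, p.2 + b / 2) = F p) ∧
        ∀ (p v w : ℝ × ℝ), inner ℝ (fderiv ℝ F p v) (fderiv ℝ F p w)
          = E p.1 * v.1 * w.1 + M p.1 * (v.1 * w.2 + v.2 * w.1) + G p.1 * v.2 * w.2) :=
  ⟨fun v₁ v₂ w hlat hw E M G hE hM hG hGpos hdet hper₁ hper₂ hinv =>
      killing_main v₁ v₂ w hlat hw E M G hE hM hG hGpos hdet hper₁ hper₂ hinv,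
    fun a b ha hb E M G hE hM hG hGpos hdet hEper hMper hGper hEe hMo hGe =>
      klein_main a b ha hb E M G hE hM hG hGpos hdet hEper hMper hGper hEe hMo hGe⟩

end Vale.Agent.Results.P205.AllEulerZero
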