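import Mathlib
import Vale.Agent.Lib.P205.Twist.Main

namespace Vale.Agent.Results.P205.AllInvariantTori

open scoped ContDiff
open Vale.Agent.Lib.P205

/-- Every circle-invariant metric on every torus.  Let the torus be `ℝ² / ⟨(a, τ), (0, b)⟩`
(`a, b > 0`, `τ` an arbitrary real number) and let `g = E(x) dx² + 2 M(x) dx dy + G(x) dy²` be any
smooth Riemannian metric on it whose coefficients do not depend on `y`.  Then the torus admits a
`C^∞` isometric immersion into `ℝ⁴`.  No condition on the twist, the curvature or the size. -/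
theorem result (a b τ : ℝ) (ha : 0 < a) (hb : 0 < b) (E M G : ℝ → ℝ)
    (hE : ContDiff ℝ ∞ E) (hM : ContDiff ℝ ∞ M) (hG : ContDiff ℝ ∞ G)
    (hGpos : ∀ x, 0 < G x) (hdet : ∀ x, 0 < E x * G x - M x ^ 2)
    (hEper : ∀ x, E (x + a) = E x) (hMper : ∀ x, M (x + a) = M x)
    (hGper : ∀ x, G (x + a) = G x) :
    ∃ F : ℝ × ℝ → EuclideanSpace ℝ (Fin 4), ContDiff ℝ ∞ F ∧
      (∀ p : ℝ × ℝ, F (p.1 + a, p.2 + τ) = F p) ∧ (∀ p : ℝ × ℝ, F (p.1, p.2 + b) = F p) ∧
      ∀ (p v w : ℝ × ℝ), inner ℝ (fderiv ℝ F p v) (fderiv ℝ F p w)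
        = E p.1 * v.1 * w.1 + M p.1 * (v.1 * w.2 + v.2 * w.1) + G p.1 * v.2 * w.2 :=
  twisted_main a b τ ha hb E M G hE hM hG hGpos hdet hEper hMper hGper

end Vale.Agent.Results.P205.AllInvariantTori
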