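import Mathlib
import Vale.Agent.Lib.P205.Klein.Main

namespace Vale.Agent.Results.P205.InvariantKleinBottles

open scoped ContDiff
open Vale.Agent.Lib.P205.Klein

/-- Every circle-invariant metric on the Klein bottle.  The Klein bottle is `ℝ² / Γ`, where `Γ` is
generated by `(x, y) ↦ (x + a, y)`, `(x, y) ↦ (x, y + b)` and `(x, y) ↦ (-x, y + b / 2)`; the circle
acts by translations in `y`.  Let `g = E(x) dx² + 2 M(x) dx dy + G(x) dy²` be any smooth Riemannian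
metric on it whose coefficients do not depend on `y` (`Γ`-invariance means: `E`, `M`, `G` are
`a`-periodic, `E`, `G` are even and `M` is odd).  Then the Klein bottle admits a `C^∞` isometric
immersion into `ℝ⁴`. -/
theorem result (a b : ℝ) (ha : 0 < a) (hb : 0 < b) (E M G : ℝ → ℝ)
    (hE : ContDiff ℝ ∞ E) (hM : ContDiff ℝ ∞ M) (hG : ContDiff ℝ ∞ G)
    (hGpos : ∀ x, 0 < G x) (hdet : ∀ x, 0 < E x * G x - M x ^ 2)
    (hEper : ∀ x, E (x + a) = E x) (hMper : ∀ x, M (x + a) = M x) (hGper : ∀ x, G (x + a) = G x)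
    (hEe : ∀ x, E (-x) = E x) (hMo : ∀ x, M (-x) = - M x) (hGe : ∀ x, G (-x) = G x) :
    ∃ F : ℝ × ℝ → EuclideanSpace ℝ (Fin 4), ContDiff ℝ ∞ F ∧
      (∀ p : ℝ × ℝ, F (p.1 + a, p.2) = F p) ∧ (∀ p : ℝ × ℝ, F (p.1, p.2 + b) = F p) ∧
      (∀ p : ℝ × ℝ, F (-p.1, p.2 + b / 2) = F p) ∧
      ∀ (p v w : ℝ × ℝ), inner ℝ (fderiv ℝ F p v) (fderiv ℝ F p w)
        = E p.1 * v.1 * w.1 + M p.1 * (v.1 * w.2 + v.2 * w.1) + G p.1 * v.2 * w.2 :=
  klein_main a b ha hb E M G hE hM hG hGpos hdet hEper hMper hGper hEe hMo hGe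

end Vale.Agent.Results.P205.InvariantKleinBottles
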