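import Mathlib
import Vale.Agent.Lib.P205.Killing.Main

namespace Vale.Agent.Results.P205.KillingFieldTori

open scoped ContDiff
open Vale.Agent.Lib.P205.Killing

/-- Every torus with a translation Killing field.  Let `L = ℤ v₁ + ℤ v₂` be any lattice in `ℝ²` and
let `g = E dx² + 2 M dx dy + G dy²` be any smooth `L`-periodic Riemannian metric on `ℝ²` which is
invariant under the translations `p ↦ p + t w`, `t ∈ ℝ`, for some nonzero vector `w` (no relation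
between `w` and the lattice is assumed).  Then the torus `(ℝ² / L, g)` admits a `C^∞` isometric
immersion into `ℝ⁴`. -/
theorem result (v₁ v₂ w : ℝ × ℝ) (hlat : v₁.1 * v₂.2 - v₁.2 * v₂.1 ≠ 0) (hw : w ≠ 0)
    (E M G : ℝ × ℝ → ℝ) (hE : ContDiff ℝ ∞ E) (hM : ContDiff ℝ ∞ M) (hG : ContDiff ℝ ∞ G)
    (hGpos : ∀ p, 0 < G p) (hdet : ∀ p, 0 < E p * G p - M p ^ 2)
    (hper₁ : ∀ p, E (p + v₁) = E p ∧ M (p + v₁) = M p ∧ G (p + v₁) = G p)
    (hper₂ : ∀ p, E (p + v₂) = E p ∧ M (p + v₂) = M p ∧ G (p + v₂) = G p)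
    (hinv : ∀ (p : ℝ × ℝ) (t : ℝ),
      E (p + t • w) = E p ∧ M (p + t • w) = M p ∧ G (p + t • w) = G p) :
    ∃ F : ℝ × ℝ → EuclideanSpace ℝ (Fin 4), ContDiff ℝ ∞ F ∧
      (∀ p, F (p + v₁) = F p) ∧ (∀ p, F (p + v₂) = F p) ∧
      ∀ p v u : ℝ × ℝ, inner ℝ (fderiv ℝ F p v) (fderiv ℝ F p u)
        = E p * v.1 * u.1 + M p * (v.1 * u.2 + v.2 * u.1) + G p * v.2 * u.2 :=
  killing_main v₁ v₂ w hlat hw E M G hE hM hG hGpos hdet hper₁ hper₂ hinv

end Vale.Agent.Results.P205.KillingFieldTori
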