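import Mathlib
import Vale.Agent.Lib.P205.Main

namespace Vale.Agent.Results.P205.WarpedTorus

open scoped ContDiff
open Vale.Agent.Lib.P205

/-- Every smooth warped-product type metric `E(x) dx² + G(x) dy²` on the torus
`ℝ² / (a ℤ × b ℤ)` (with `E, G` arbitrary smooth positive `a`-periodic functions) admits a
`C^∞` isometric immersion into Euclidean `ℝ⁴`: a smooth doubly periodic map
`F : ℝ² → ℝ⁴` whose differential pulls the Euclidean inner product back to the metric. -/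
theorem result (a b : ℝ) (ha : 0 < a) (hb : 0 < b) (E G : ℝ → ℝ)
    (hE : ContDiff ℝ ∞ E) (hG : ContDiff ℝ ∞ G)
    (hEpos : ∀ x, 0 < E x) (hGpos : ∀ x, 0 < G x)
    (hEper : ∀ x, E (x + a) = E x) (hGper : ∀ x, G (x + a) = G x) :
    ∃ F : ℝ × ℝ → EuclideanSpace ℝ (Fin 4), ContDiff ℝ ∞ F ∧
      (∀ p : ℝ × ℝ, F (p.1 + a, p.2) = F p) ∧ (∀ p : ℝ × ℝ, F (p.1, p.2 + b) = F p) ∧
      ∀ (p v w : ℝ × ℝ), inner ℝ (fderiv ℝ F p v) (fderiv ℝ F p w)
        = E p.1 * v.1 * w.1 + G p.1 * v.2 * w.2 := by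
  obtain ⟨F, h1, h2, h3, h4⟩ := main a b 0 ha hb E (fun _ => 0) G hE contDiff_const hG hGpos
    (fun x => by have := mul_pos (hEpos x) (hGpos x); simpa using this) hEper (fun _ => rfl) hGper
    1 one_pos 0 (by simp)
  refine ⟨F, h1, fun p => ?_, h3, fun p v w => ?_⟩
  · simpa using h2 p
  · rw [h4 p v w]; ring

end Vale.Agent.Results.P205.WarpedTorus
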